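import Vale.Agent.P235.H205.Grid.PlanarTop
import Vale.Agent.P235.H62.PlanarComb

/-!
# Every finite planar graph is a minor of a grid
-/

namespace Vale.Agent.P235.H205

open Vale.Agent.P235.H134

/-- (G9) every finite planar graph is a minor of a grid. -/
theorem planar : PlanarStmt := planar_of_comb Vale.Agent.P235.H62.planarComb

end Vale.Agent.P235.H205
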