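import Vale.Agent.P235.H134.Grid.Defs

/-!
# Cells of the grid met by a connected set of the plane
-/

namespace Vale.Agent.P235.H205

open SimpleGraph Vale.Agent.P235.H134

/-- `z` lies in the closed square number `(i, j)` of side `ε`, the lower left corner of the square
number `(0, 0)` being `(c, c)`. -/
def InSq (c ε : ℝ) (z : ℝ × ℝ) (i j : ℕ) : Prop :=
  (c + i * ε ≤ z.1 ∧ z.1 ≤ c + (i + 1) * ε) ∧ (c + j * ε ≤ z.2 ∧ z.2 ≤ c + (j + 1) * ε)

/-- The squares met by `S`. -/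
def cells (r : ℕ) (c ε : ℝ) (S : Set (ℝ × ℝ)) : Set (Fin r × Fin r) :=
  {q | ∃ z ∈ S, InSq c ε z q.1 q.2}

theorem InSq.dist_le {c ε : ℝ} {z w : ℝ × ℝ} {i j : ℕ} (hz : InSq c ε z i j)
    (hw : InSq c ε w i j) : dist z w ≤ ε := by
  obtain ⟨⟨a1, a2⟩, a3, a4⟩ := hz
  obtain ⟨⟨b1, b2⟩, b3, b4⟩ := hw
  rw [Prod.dist_eq]
  refine max_le ?_ ?_
  · rw [Real.dist_eq, abs_le]
    constructor <;> linarith
  · rw [Real.dist_eq, abs_le]
    constructor <;> linarith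

theorem isClosed_inSq (c ε : ℝ) (i j : ℕ) : IsClosed {z : ℝ × ℝ | InSq c ε z i j} := by
  have e : {z : ℝ × ℝ | InSq c ε z i j} =
      Set.Icc (c + i * ε) (c + (i + 1) * ε) ×ˢ Set.Icc (c + j * ε) (c + (j + 1) * ε) := by
    ext z
    simp only [InSq, Set.mem_ofPred_eq, Set.mem_prod, Set.mem_Icc]
  rw [e]
  exact isClosed_Icc.prod isClosed_Icc

theorem near_of_common {c ε x : ℝ} (hε : 0 < ε) {i i' : ℕ} (h : c + i * ε ≤ x)
    (h' : x ≤ c + (i' + 1) * ε) : i ≤ i' + 1 := by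
  have h1 : (i : ℝ) * ε ≤ ((i' : ℝ) + 1) * ε := by linarith
  have h2 : (i : ℝ) ≤ (i' : ℝ) + 1 := le_of_mul_le_mul_right h1 hε
  exact_mod_cast h2

theorem adj_or_eq {r : ℕ} {i i' : Fin r} (h : (i : ℕ) ≤ i' + 1) (h' : (i' : ℕ) ≤ i + 1) :
    i = i' ∨ (pathGraph r).Adj i i' := by
  by_cases hh : (i : ℕ) = i'
  · exact Or.inl (Fin.ext hh)
  · right
    rw [pathGraph_adj]
    omega

theorem reachable_of_common {r : ℕ} {c ε : ℝ} (hε : 0 < ε) {S : Set (ℝ × ℝ)} {z : ℝ × ℝ}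
    (hz : z ∈ S) {q q' : Fin r × Fin r} (hq : InSq c ε z q.1 q.2) (hq' : InSq c ε z q'.1 q'.2) :
    ((grid r).induce (cells r c ε S)).Reachable ⟨q, z, hz, hq⟩ ⟨q', z, hz, hq'⟩ := by
  have hm : InSq c ε z (q.1, q'.2).1 (q.1, q'.2).2 := ⟨hq.1, hq'.2⟩
  have h1 : ((grid r).induce (cells r c ε S)).Reachable ⟨q, z, hz, hq⟩
      ⟨(q.1, q'.2), z, hz, hm⟩ := by
    rcases adj_or_eq (near_of_common hε hq.2.1 hq'.2.2) (near_of_common hε hq'.2.1 hq.2.2) with h | h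
    · have e : q = (q.1, q'.2) := Prod.ext rfl h
      have e' : (⟨q, z, hz, hq⟩ : cells r c ε S) = ⟨(q.1, q'.2), z, hz, hm⟩ := Subtype.ext e
      rw [e']
    · refine Adj.reachable ?_
      rw [comap_adj]
      change (pathGraph r □ pathGraph r).Adj q (q.1, q'.2)
      rw [boxProd_adj]
      exact Or.inr ⟨h, rfl⟩
  have h2 : ((grid r).induce (cells r c ε S)).Reachable ⟨(q.1, q'.2), z, hz, hm⟩
      ⟨q', z, hz, hq'⟩ := by
    rcases adj_or_eq (near_of_common hε hq.1.1 hq'.1.2) (near_of_common hε hq'.1.1 hq.1.2) with h | h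
    · have e : (q.1, q'.2) = q' := Prod.ext h rfl
      have e' : (⟨(q.1, q'.2), z, hz, hm⟩ : cells r c ε S) = ⟨q', z, hz, hq'⟩ := Subtype.ext e
      rw [e']
    · refine Adj.reachable ?_
      rw [comap_adj]
      change (pathGraph r □ pathGraph r).Adj (q.1, q'.2) q'
      rw [boxProd_adj]
      exact Or.inl ⟨h, rfl⟩
  exact h1.trans h2

/-- The squares met by a nonempty preconnected set covered by the squares form a connected subgraph
of the grid. -/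
theorem cells_connected {r : ℕ} {c ε : ℝ} (hε : 0 < ε) {S : Set (ℝ × ℝ)} (hS : IsPreconnected S)
    (hne : S.Nonempty) (hcov : ∀ z ∈ S, ∃ i j : Fin r, InSq c ε z i j) :
    ((grid r).induce (cells r c ε S)).Connected := by
  obtain ⟨z₀, hz₀⟩ := hne
  obtain ⟨i₀, j₀, h₀⟩ := hcov z₀ hz₀
  set q₀ : cells r c ε S := ⟨(i₀, j₀), z₀, hz₀, h₀⟩ with hq₀
  have : Nonempty (cells r c ε S) := ⟨q₀⟩
  have key : ∀ q : cells r c ε S, ((grid r).induce (cells r c ε S)).Reachable q₀ q := by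
    by_contra hcon
    push Not at hcon
    obtain ⟨q₁, hq₁⟩ := hcon
    let T : Set (ℝ × ℝ) := ⋃ q : cells r c ε S, ⋃ (_ : ((grid r).induce (cells r c ε S)).Reachable q₀ q),
      {z | InSq c ε z q.1.1 q.1.2}
    let T' : Set (ℝ × ℝ) := ⋃ q : cells r c ε S,
      ⋃ (_ : ¬ ((grid r).induce (cells r c ε S)).Reachable q₀ q), {z | InSq c ε z q.1.1 q.1.2}
    have hT : IsClosed T := isClosed_iUnion_of_finite fun q =>
      isClosed_iUnion_of_finite fun _ => isClosed_inSq _ _ _ _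
    have hT' : IsClosed T' := isClosed_iUnion_of_finite fun q =>
      isClosed_iUnion_of_finite fun _ => isClosed_inSq _ _ _ _
    have hST : S ⊆ T ∪ T' := by
      intro z hz
      obtain ⟨i, j, h⟩ := hcov z hz
      by_cases hr : ((grid r).induce (cells r c ε S)).Reachable q₀ ⟨(i, j), z, hz, h⟩
      · left
        exact Set.mem_iUnion.2 ⟨⟨(i, j), z, hz, h⟩, Set.mem_iUnion.2 ⟨hr, h⟩⟩
      · right
        exact Set.mem_iUnion.2 ⟨⟨(i, j), z, hz, h⟩, Set.mem_iUnion.2 ⟨hr, h⟩⟩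
    have hne1 : (S ∩ T).Nonempty :=
      ⟨z₀, hz₀, Set.mem_iUnion.2 ⟨q₀, Set.mem_iUnion.2 ⟨Reachable.refl _, h₀⟩⟩⟩
    have hne2 : (S ∩ T').Nonempty := by
      obtain ⟨z, hz, h⟩ := q₁.2
      exact ⟨z, hz, Set.mem_iUnion.2 ⟨q₁, Set.mem_iUnion.2 ⟨hq₁, h⟩⟩⟩
    obtain ⟨z, hz, hzT, hzT'⟩ := isPreconnected_closed_iff.1 hS T T' hT hT' hST hne1 hne2
    obtain ⟨q, hq⟩ := Set.mem_iUnion.1 hzT
    obtain ⟨hqr, hq⟩ := Set.mem_iUnion.1 hq
    obtain ⟨q', hq'⟩ := Set.mem_iUnion.1 hzT'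
    obtain ⟨hqr', hq'⟩ := Set.mem_iUnion.1 hq'
    exact hqr' (hqr.trans (reachable_of_common hε hz hq hq'))
  exact ⟨fun a b => (key a).symm.trans (key b)⟩

/-- The square containing a given point of the box. -/
theorem exists_inSq {r : ℕ} {c ε : ℝ} (hε : 0 < ε) {z : ℝ × ℝ} (h1 : c ≤ z.1) (h2 : c ≤ z.2)
    (h1' : z.1 < c + r * ε) (h2' : z.2 < c + r * ε) : ∃ i j : Fin r, InSq c ε z i j := by
  have key : ∀ x : ℝ, c ≤ x → x < c + r * ε →
      ∃ i : Fin r, c + (i : ℕ) * ε ≤ x ∧ x ≤ c + ((i : ℕ) + 1) * ε := by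
    intro x hx hx'
    have h0 : 0 ≤ (x - c) / ε := div_nonneg (by linarith) hε.le
    have hlt : (x - c) / ε < r := by
      rw [div_lt_iff₀ hε]
      linarith
    have hfl : ⌊(x - c) / ε⌋₊ < r := (Nat.floor_lt h0).2 hlt
    refine ⟨⟨⌊(x - c) / ε⌋₊, hfl⟩, ?_, ?_⟩
    · have := Nat.floor_le h0
      rw [le_div_iff₀ hε] at this
      simp only
      linarith
    · have := (Nat.lt_floor_add_one ((x - c) / ε)).le
      rw [div_le_iff₀ hε] at this
      simp only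
      linarith
  obtain ⟨i, hi, hi'⟩ := key z.1 h1 h1'
  obtain ⟨j, hj, hj'⟩ := key z.2 h2 h2'
  exact ⟨i, j, ⟨hi, hi'⟩, hj, hj'⟩

end Vale.Agent.P235.H205
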