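import Vale.Agent.P235.H134.Grid.Planar
import Vale.Agent.P235.H205.Grid.Cells

/-!
# Planar graphs and grids: the topological part
-/

namespace Vale.Agent.P235.H205

open SimpleGraph Vale.Agent.P235.H134 Filter Topology

/-- The inner part of a drawn edge. -/
theorem exists_inner {W : Type} {H : SimpleGraph W} {p : W → ℝ × ℝ} {γ : Sym2 W → ℝ → ℝ × ℝ}
    (hγ : ∀ e ∈ H.edgeSet, ContinuousOn (γ e) (Set.Icc 0 1) ∧ Set.InjOn (γ e) (Set.Icc 0 1))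
    (hend : ∀ a b, H.Adj a b → ({γ s(a, b) 0, γ s(a, b) 1} : Set (ℝ × ℝ)) = {p a, p b})
    (hmem : ∀ e ∈ H.edgeSet, ∀ a, p a ∈ γ e '' Set.Icc 0 1 → a ∈ e)
    {δ : ℝ} (hδ : 0 < δ) (e : Sym2 W) : ∃ K : Set (ℝ × ℝ), IsCompact K ∧ (e ∈ H.edgeSet →
      IsPreconnected K ∧ K.Nonempty ∧ K ⊆ γ e '' Set.Icc 0 1 ∧ (∀ a, p a ∉ K) ∧
      ∀ a ∈ e, ∃ y ∈ K, dist y (p a) ≤ δ) := by
  by_cases he : e ∈ H.edgeSet
  swap
  · exact ⟨∅, isCompact_empty, fun h => absurd h he⟩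
  obtain ⟨hc, hi⟩ := hγ e he
  have h0 : (0 : ℝ) ∈ Set.Icc (0 : ℝ) 1 := ⟨le_refl _, zero_le_one⟩
  have h1 : (1 : ℝ) ∈ Set.Icc (0 : ℝ) 1 := ⟨zero_le_one, le_refl _⟩
  -- a parameter close to `0`
  have hs : ∃ s ∈ Set.Ioc (0 : ℝ) (1 / 2), dist (γ e s) (γ e 0) ≤ δ := by
    have hcw : Tendsto (γ e) (𝓝[Set.Icc 0 1] 0) (𝓝 (γ e 0)) := hc 0 h0
    have hle : 𝓝[>] (0 : ℝ) ≤ 𝓝[Set.Icc 0 1] 0 := by
      rw [nhdsWithin_le_iff]
      exact mem_of_superset (Ioc_mem_nhdsGT zero_lt_one) Set.Ioc_subset_Icc_self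
    have h2 : ∀ᶠ s in 𝓝[>] (0 : ℝ), dist (γ e s) (γ e 0) < δ :=
      (hcw.mono_left hle).eventually (Metric.ball_mem_nhds _ hδ)
    have h3 : ∀ᶠ s in 𝓝[>] (0 : ℝ), s ∈ Set.Ioc (0 : ℝ) (1 / 2) :=
      Ioc_mem_nhdsGT (by norm_num)
    obtain ⟨s, hs1, hs2⟩ := (h2.and h3).exists
    exact ⟨s, hs2, hs1.le⟩
  have ht : ∃ t ∈ Set.Ico (1 / 2 : ℝ) 1, dist (γ e t) (γ e 1) ≤ δ := by
    have hcw : Tendsto (γ e) (𝓝[Set.Icc 0 1] 1) (𝓝 (γ e 1)) := hc 1 h1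
    have hle : 𝓝[<] (1 : ℝ) ≤ 𝓝[Set.Icc 0 1] 1 := by
      rw [nhdsWithin_le_iff]
      exact mem_of_superset (Ico_mem_nhdsLT zero_lt_one) Set.Ico_subset_Icc_self
    have h2 : ∀ᶠ s in 𝓝[<] (1 : ℝ), dist (γ e s) (γ e 1) < δ :=
      (hcw.mono_left hle).eventually (Metric.ball_mem_nhds _ hδ)
    have h3 : ∀ᶠ s in 𝓝[<] (1 : ℝ), s ∈ Set.Ico (1 / 2 : ℝ) 1 :=
      Ico_mem_nhdsLT (by norm_num)
    obtain ⟨s, hs1, hs2⟩ := (h2.and h3).exists
    exact ⟨s, hs2, hs1.le⟩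
  obtain ⟨s, ⟨hs0, hs1⟩, hsd⟩ := hs
  obtain ⟨t, ⟨ht0, ht1⟩, htd⟩ := ht
  have hst : s ≤ t := hs1.trans ht0
  have hsub : Set.Icc s t ⊆ Set.Icc (0 : ℝ) 1 := Set.Icc_subset_Icc hs0.le ht1.le
  have hends : ∀ a ∈ e, p a = γ e 0 ∨ p a = γ e 1 := by
    intro a ha
    obtain ⟨b, rfl⟩ := Sym2.mem_iff_exists.1 ha
    have h2 := hend a b (by simpa using he)
    have h3 : p a ∈ ({γ s(a, b) 0, γ s(a, b) 1} : Set (ℝ × ℝ)) := by
      rw [h2]
      exact Or.inl rfl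
    exact h3
  refine ⟨γ e '' Set.Icc s t, isCompact_Icc.image_of_continuousOn (hc.mono hsub), fun _ => ⟨?_, ?_,
    Set.image_mono hsub, ?_, ?_⟩⟩
  · exact isPreconnected_Icc.image _ (hc.mono hsub)
  · exact ⟨γ e s, s, ⟨le_refl _, hst⟩, rfl⟩
  · rintro a ⟨x, hx, hxa⟩
    have ha : a ∈ e := hmem e he a ⟨x, hsub hx, hxa⟩
    rcases hends a ha with h | h
    · have := hi (hsub hx) h0 (hxa.trans h)
      rw [this] at hx
      exact absurd hx.1 (not_le.2 hs0)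
    · have := hi (hsub hx) h1 (hxa.trans h)
      rw [this] at hx
      exact absurd hx.2 (not_le.2 ht1)
  · intro a ha
    rcases hends a ha with h | h
    · exact ⟨γ e s, ⟨s, ⟨le_refl _, hst⟩, rfl⟩, by rw [h]; exact hsd⟩
    · exact ⟨γ e t, ⟨t, ⟨hst, le_refl _⟩, rfl⟩, by rw [h]; exact htd⟩

theorem eventually_mul_lt (c k : ℝ) (hc : 0 < c) : ∀ᶠ δ in 𝓝[>] (0 : ℝ), k * δ < c := by
  have h : Tendsto (fun δ : ℝ => k * δ) (𝓝[>] 0) (𝓝 0) := by
    have h2 : Tendsto (fun δ : ℝ => k * δ) (𝓝 0) (𝓝 (k * 0)) :=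
      (continuous_const.mul continuous_id).tendsto 0
    rw [mul_zero] at h2
    exact h2.mono_left nhdsWithin_le_nhds
  exact h.eventually (gt_mem_nhds hc)

/-- A drawing of a finite graph in the plane gives a model of the graph in a large grid. -/
theorem planar_model (W : Type) [Finite W] (H : SimpleGraph W) (hpl : Planar H) :
    ∃ r : ℕ, 1 ≤ r ∧ ∃ (X : W → Set (Fin r × Fin r)) (K : Sym2 W → Set (Fin r × Fin r)),
      (∀ a, ((grid r).induce (X a)).Connected) ∧ (∀ a b, a ≠ b → Disjoint (X a) (X b)) ∧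
      (∀ e ∈ H.edgeSet, ((grid r).induce (K e)).Connected) ∧
      (∀ e ∈ H.edgeSet, ∀ e' ∈ H.edgeSet, e ≠ e' → Disjoint (K e) (K e')) ∧
      (∀ e ∈ H.edgeSet, ∀ a, a ∈ e ↔ (X a ∩ K e).Nonempty) := by
  obtain ⟨p, γ, hp, hγ, hend, hmem, hinter⟩ := hpl
  have : Finite (Sym2 W) := by
    have := Fintype.ofFinite W
    classical infer_instance
  -- choice of `δ`
  have hδ1 : ∀ᶠ δ in 𝓝[>] (0 : ℝ), ∀ a b, a ≠ b → 4 * δ < dist (p a) (p b) := by
    refine eventually_all.2 fun a => eventually_all.2 fun b => ?_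
    by_cases hab : a = b
    · exact Eventually.of_forall fun _ h => absurd hab h
    · exact (eventually_mul_lt _ 4 (dist_pos.2 (hp.ne hab))).mono fun _ h _ => h
  have hδ2 : ∀ᶠ δ in 𝓝[>] (0 : ℝ), ∀ e, e ∈ H.edgeSet → ∀ a, a ∉ e →
      ∀ y ∈ γ e '' Set.Icc 0 1, 2 * δ < dist (p a) y := by
    refine eventually_all.2 fun e => ?_
    by_cases he : e ∈ H.edgeSet
    swap
    · exact Eventually.of_forall fun _ h => absurd h he
    have h2 : ∀ᶠ δ in 𝓝[>] (0 : ℝ), ∀ a, a ∉ e → ∀ y ∈ γ e '' Set.Icc 0 1,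
        2 * δ < dist (p a) y := by
      refine eventually_all.2 fun a => ?_
      by_cases ha : a ∈ e
      · exact Eventually.of_forall fun _ h => absurd ha h
      have hcl : IsClosed (γ e '' Set.Icc 0 1) :=
        (isCompact_Icc.image_of_continuousOn (hγ e he).1).isClosed
      have hne : (γ e '' Set.Icc 0 1).Nonempty := ⟨γ e 0, 0, ⟨le_refl _, zero_le_one⟩, rfl⟩
      have hpos : 0 < Metric.infDist (p a) (γ e '' Set.Icc 0 1) :=
        (hcl.notMem_iff_infDist_pos hne).1 fun h => ha (hmem e he a h)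
      exact (eventually_mul_lt _ 2 hpos).mono fun δ h _ y hy =>
        lt_of_lt_of_le h (Metric.infDist_le_dist_of_mem hy)
    exact h2.mono fun _ h _ => h
  obtain ⟨δ, ⟨hδ1, hδ2⟩, hδ⟩ := ((hδ1.and hδ2).and (self_mem_nhdsWithin :
    Set.Ioi (0 : ℝ) ∈ 𝓝[>] (0 : ℝ))).exists
  replace hδ : 0 < δ := hδ
  choose K hKc hK using exists_inner hγ hend hmem hδ
  -- choice of `ε`
  have hε1 : ∀ᶠ ε in 𝓝[>] (0 : ℝ), ∀ e e', e ∈ H.edgeSet → e' ∈ H.edgeSet → e ≠ e' →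
      ∀ y ∈ K e, ∀ y' ∈ K e', ε < dist y y' := by
    refine eventually_all.2 fun e => eventually_all.2 fun e' => ?_
    by_cases he : e ∈ H.edgeSet ∧ e' ∈ H.edgeSet ∧ e ≠ e'
    swap
    · exact Eventually.of_forall fun _ h h' h'' => absurd ⟨h, h', h''⟩ he
    obtain ⟨he, he', hee⟩ := he
    have hd : Disjoint (K e) (K e') := by
      rw [Set.disjoint_left]
      intro y hy hy'
      obtain ⟨a, rfl⟩ := hinter e he e' he' hee ⟨(hK e he).2.2.1 hy, (hK e' he').2.2.1 hy'⟩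
      exact (hK e he).2.2.2.1 a hy
    obtain ⟨ρ, hρ, hρ'⟩ := Metric.exists_pos_forall_lt_edist (hKc e) (hKc e').isClosed hd
    have hρ0 : (0 : ℝ) < ρ := NNReal.coe_pos.2 hρ
    refine (eventually_mul_lt (ρ : ℝ) 1 hρ0).mono fun ε h _ _ _ y hy y' hy' => ?_
    rw [one_mul] at h
    refine h.trans ?_
    have h3 := hρ' y hy y' hy'
    rw [edist_nndist] at h3
    have h4 : ρ < nndist y y' := by exact_mod_cast h3
    exact_mod_cast h4
  have hε2 : ∀ᶠ ε in 𝓝[>] (0 : ℝ), 1 * ε < δ := eventually_mul_lt _ _ hδ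
  obtain ⟨ε, ⟨hε1, hε2⟩, hε⟩ := ((hε1.and hε2).and (self_mem_nhdsWithin :
    Set.Ioi (0 : ℝ) ∈ 𝓝[>] (0 : ℝ))).exists
  replace hε : 0 < ε := hε
  rw [one_mul] at hε2
  -- the box
  have hbdd : Bornology.IsBounded ((⋃ a, Metric.closedBall (p a) δ) ∪ ⋃ e, K e) :=
    (Bornology.isBounded_iUnion.2 fun a => Metric.isBounded_closedBall).union
      (Bornology.isBounded_iUnion.2 fun e => (hKc e).isBounded)
  obtain ⟨M, hM⟩ := hbdd.subset_closedBall (0 : ℝ × ℝ)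
  obtain ⟨r, hr⟩ := exists_nat_gt (2 * M / ε)
  have hcov : ∀ z ∈ (⋃ a, Metric.closedBall (p a) δ) ∪ ⋃ e, K e,
      ∃ i j : Fin (r + 1), InSq (-M) ε z i j := by
    intro z hz
    have h1 := hM hz
    rw [Metric.mem_closedBall, Prod.dist_eq, max_le_iff, Real.dist_eq, Real.dist_eq, abs_le,
      abs_le] at h1
    obtain ⟨⟨h2, h3⟩, h4, h5⟩ := h1
    simp only [Prod.fst_zero, Prod.snd_zero, sub_zero] at h2 h3 h4 h5
    have h6 : 2 * M < r * ε := (div_lt_iff₀ hε).1 hr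
    have h7 : ((r + 1 : ℕ) : ℝ) * ε = r * ε + ε := by push_cast; ring
    refine exists_inSq hε (by linarith) (by linarith) ?_ ?_ <;> rw [h7] <;> linarith
  refine ⟨r + 1, Nat.le_add_left _ _, fun a => cells (r + 1) (-M) ε (Metric.closedBall (p a) δ),
    fun e => cells (r + 1) (-M) ε (K e), ?_, ?_, ?_, ?_, ?_⟩
  · intro a
    refine cells_connected hε (convex_closedBall _ _).isPreconnected
      ⟨p a, Metric.mem_closedBall_self hδ.le⟩ fun z hz => hcov z (Or.inl ?_)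
    exact Set.mem_iUnion.2 ⟨a, hz⟩
  · intro a b hab
    rw [Set.disjoint_left]
    rintro q ⟨z, hz, hzq⟩ ⟨w, hw, hwq⟩
    have h1 := hδ1 a b hab
    have h2 := hzq.dist_le hwq
    rw [Metric.mem_closedBall] at hz hw
    have h3 := dist_triangle (p a) z (p b)
    have h4 := dist_triangle z w (p b)
    rw [_root_.dist_comm] at hz
    linarith
  · intro e he
    refine cells_connected hε (hK e he).1 (hK e he).2.1 fun z hz => hcov z (Or.inr ?_)
    exact Set.mem_iUnion.2 ⟨e, hz⟩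
  · intro e he e' he' hee
    rw [Set.disjoint_left]
    rintro q ⟨z, hz, hzq⟩ ⟨w, hw, hwq⟩
    exact absurd (hzq.dist_le hwq) (not_le.2 (hε1 e e' he he' hee z hz w hw))
  · intro e he a
    constructor
    · intro ha
      obtain ⟨y, hy, hya⟩ := (hK e he).2.2.2.2 a ha
      obtain ⟨i, j, hij⟩ := hcov y (Or.inr (Set.mem_iUnion.2 ⟨e, hy⟩))
      exact ⟨(i, j), ⟨y, hya, hij⟩, y, hy, hij⟩
    · rintro ⟨q, ⟨z, hz, hzq⟩, w, hw, hwq⟩
      by_contra ha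
      have h1 := hδ2 e he a ha w ((hK e he).2.2.1 hw)
      have h2 := hzq.dist_le hwq
      rw [Metric.mem_closedBall] at hz
      have h3 := dist_triangle (p a) z w
      rw [_root_.dist_comm] at hz
      linarith

/-- Planar graphs are minors of grids, given the graph-theoretic part. -/
theorem planar_of_comb (h : PlanarCombStmt) : PlanarStmt := by
  intro W _ H hpl
  obtain ⟨r, hr, X, K, h1, h2, h3, h4, h5⟩ := planar_model W H hpl
  exact ⟨r, hr, h (Fin r × Fin r) W (grid r) H X K h1 h2 h3 h4 h5⟩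

end Vale.Agent.P235.H205
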